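import Vale.Agent.P062.Main

open Vale.Agent.P062

/-- Maker has a strategy `σ` on the empty board `ℤ²` (no handicap) such that, for every sequence `b`
of Breaker moves and every `n`: if Breaker's first `n` moves are legal (each on a cell not claimed
before by either player), then Maker's move number `n` is legal too, and as soon as `n ≥ 32`
Maker's first `n` moves contain an allowed copy of Snaky. -/
theorem Vale.Agent.Results.P062.MakerWins.result :
    ∃ σ : List (ℤ × ℤ) → ℤ × ℤ, ∀ (b : ℕ → ℤ × ℤ) (n : ℕ),
      (∀ i < n, (∀ j ≤ i, b i ≠ makerMove σ b j) ∧ (∀ j < i, b i ≠ b j)) →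
        (∀ j < n, makerMove σ b n ≠ makerMove σ b j ∧ makerMove σ b n ≠ b j) ∧
        (32 ≤ n → ∃ T, IsCopy T ∧ ∀ p ∈ T, ∃ j < n, makerMove σ b j = p) :=
  strategy_of_wins 32 wins_empty
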